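import Crest.Agent.R205.ODE
import Crest.Prelude.Def_QuadricHamiltonian

/-!
The vector field on complex 5-space used for the Hamiltonian diffeomorphism of the quadric
threefold with three fixed points, and its algebraic properties.
-/

set_option autoImplicit false

open scoped ContDiff Topology NNReal
open Set Metric Crest.GeometryTopology.Quadric

namespace Crest.Agent.R205

abbrev E5 : Type := Fin 5 → ℂ

noncomputable def om : E5 →L[ℝ] E5 →L[ℝ] ℝ :=
  (LinearMap.mk₂ ℝ (fun u w : E5 => (herm u w).im)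
    (fun _ _ _ => by simp [herm, Fin.sum_univ_five]; ring)
    (fun _ _ _ => by simp [herm, Fin.sum_univ_five]; ring)
    (fun _ _ _ => by simp [herm, Fin.sum_univ_five]; ring)
    (fun _ _ _ => by simp [herm, Fin.sum_univ_five]; ring)).toContinuousBilinearMap

noncomputable def rp : E5 →L[ℝ] E5 →L[ℝ] ℝ :=
  (LinearMap.mk₂ ℝ (fun u w : E5 => (herm u w).re)
    (fun _ _ _ => by simp [herm, Fin.sum_univ_five]; ring)
    (fun _ _ _ => by simp [herm, Fin.sum_univ_five]; ring)
    (fun _ _ _ => by simp [herm, Fin.sum_univ_five]; ring)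
    (fun _ _ _ => by simp [herm, Fin.sum_univ_five]; ring)).toContinuousBilinearMap

noncomputable def bil : E5 →L[ℝ] E5 →L[ℝ] ℂ :=
  (LinearMap.mk₂ ℝ (fun u w : E5 => ∑ j, u j * w j)
    (fun _ _ _ => by simp [Fin.sum_univ_five]; ring)
    (fun _ _ _ => by simp [Fin.sum_univ_five]; ring)
    (fun _ _ _ => by simp [Fin.sum_univ_five]; ring)
    (fun _ _ _ => by simp [Fin.sum_univ_five]; ring)).toContinuousBilinearMap

lemma om_def (u w : E5) : om u w = (herm u w).im := rfl
lemma rp_def (u w : E5) : rp u w = (herm u w).re := rfl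
lemma bil_def (u w : E5) : bil u w = ∑ j, u j * w j := rfl

lemma om_eq (u w : E5) : om u w =
    (u 0).re * (w 0).im - (u 0).im * (w 0).re + ((u 1).re * (w 1).im - (u 1).im * (w 1).re) +
    ((u 2).re * (w 2).im - (u 2).im * (w 2).re) + ((u 3).re * (w 3).im - (u 3).im * (w 3).re) +
    ((u 4).re * (w 4).im - (u 4).im * (w 4).re) := by
  simp [om_def, herm, Fin.sum_univ_five]; ring

lemma rp_eq (u w : E5) : rp u w =
    (u 0).re * (w 0).re + (u 0).im * (w 0).im + ((u 1).re * (w 1).re + (u 1).im * (w 1).im) +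
    ((u 2).re * (w 2).re + (u 2).im * (w 2).im) + ((u 3).re * (w 3).re + (u 3).im * (w 3).im) +
    ((u 4).re * (w 4).re + (u 4).im * (w 4).im) := by
  simp [rp_def, herm, Fin.sum_univ_five]

lemma bil_eq (u w : E5) : bil u w = u 0 * w 0 + u 1 * w 1 + u 2 * w 2 + u 3 * w 3 + u 4 * w 4 := by
  simp [bil_def, Fin.sum_univ_five]

lemma mem_unitCone {z : E5} : z ∈ unitCone ↔ rp z z = 1 ∧ bil z z = 0 := by
  have h1 : (herm z z).im = 0 := by
    rw [← om_def, om_eq]; ring
  simp only [unitCone, mem_ofPred_eq, bil_def, rp_def, sq]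
  refine and_congr_left fun _ => ⟨fun h => by simp [h], fun h => ?_⟩
  exact Complex.ext (by simpa using h) (by simpa using h1)

/-- A real-linear map given by a signed permutation pattern on the first four coordinates. -/
noncomputable def mkA (f : E5 → E5) (h1 : ∀ x y, f (x + y) = f x + f y)
    (h2 : ∀ (c : ℝ) x, f (c • x) = c • f x) : E5 →L[ℝ] E5 :=
  LinearMap.toContinuousLinearMap { toFun := f, map_add' := h1, map_smul' := h2 }

macro "lin_tac" : tactic =>
  `(tactic| (intros; ext j; fin_cases j <;> simp <;> ring))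

noncomputable def L1 : E5 →L[ℝ] E5 :=
  mkA (fun z => ![-z 1, z 0, -z 3, z 2, 0]) (by lin_tac) (by lin_tac)
noncomputable def L2 : E5 →L[ℝ] E5 :=
  mkA (fun z => ![-z 2, z 3, z 0, -z 1, 0]) (by lin_tac) (by lin_tac)
noncomputable def L3 : E5 →L[ℝ] E5 :=
  mkA (fun z => ![-z 3, -z 2, z 1, z 0, 0]) (by lin_tac) (by lin_tac)
noncomputable def R1 : E5 →L[ℝ] E5 :=
  mkA (fun z => ![z 1, -z 0, -z 3, z 2, 0]) (by lin_tac) (by lin_tac)
noncomputable def R2 : E5 →L[ℝ] E5 :=
  mkA (fun z => ![z 2, z 3, -z 0, -z 1, 0]) (by lin_tac) (by lin_tac)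
noncomputable def R3 : E5 →L[ℝ] E5 :=
  mkA (fun z => ![z 3, -z 2, z 1, -z 0, 0]) (by lin_tac) (by lin_tac)

lemma L1_apply (z : E5) : L1 z = ![-z 1, z 0, -z 3, z 2, 0] := rfl
lemma L2_apply (z : E5) : L2 z = ![-z 2, z 3, z 0, -z 1, 0] := rfl
lemma L3_apply (z : E5) : L3 z = ![-z 3, -z 2, z 1, z 0, 0] := rfl
lemma R1_apply (z : E5) : R1 z = ![z 1, -z 0, -z 3, z 2, 0] := rfl
lemma R2_apply (z : E5) : R2 z = ![z 2, z 3, -z 0, -z 1, 0] := rfl
lemma R3_apply (z : E5) : R3 z = ![z 3, -z 2, z 1, -z 0, 0] := rfl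

/-- Moment map component of the skew map `A`. -/
noncomputable def q (A : E5 →L[ℝ] E5) (z : E5) : ℝ := om (A z) z

/-- Squared Euclidean norm. -/
noncomputable def nn (z : E5) : ℝ := rp z z

/-- The properties of a real skew matrix acting on the first four coordinates. -/
structure Skew (A : E5 →L[ℝ] E5) : Prop where
  om_skew : ∀ u w, om (A u) w = om (A w) u
  rp_skew : ∀ u, rp (A u) u = 0
  bil_skew : ∀ u, bil (A u) u = 0
  smul : ∀ (c : ℂ) u, A (c • u) = c • A u
  last : ∀ u, A u 4 = 0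

macro "skew_tac" h:term : tactic =>
  `(tactic| (constructor
             · intro u w; simp [om_eq, $h:term]; ring
             · intro u; simp [rp_eq, $h:term]; ring
             · intro u; simp [bil_eq, $h:term]; ring
             · intro c u; ext j; fin_cases j <;> simp [$h:term]
             · intro u; simp [$h:term]))

lemma skew_L1 : Skew L1 := by skew_tac L1_apply
lemma skew_L2 : Skew L2 := by skew_tac L2_apply
lemma skew_L3 : Skew L3 := by skew_tac L3_apply
lemma skew_R1 : Skew R1 := by skew_tac R1_apply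
lemma skew_R2 : Skew R2 := by skew_tac R2_apply
lemma skew_R3 : Skew R3 := by skew_tac R3_apply

lemma om_smul_smul (c : ℂ) (hc : ‖c‖ = 1) (u w : E5) : om (c • u) (c • w) = om u w := by
  have h : c.re ^ 2 + c.im ^ 2 = 1 := by
    have := Complex.sq_norm c
    rw [hc, Complex.normSq_apply] at this
    linarith
  simp only [om_eq, Pi.smul_apply, smul_eq_mul, Complex.mul_re, Complex.mul_im]
  linear_combination ((u 0).re * (w 0).im - (u 0).im * (w 0).re + ((u 1).re * (w 1).im - (u 1).im * (w 1).re) +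
    ((u 2).re * (w 2).im - (u 2).im * (w 2).re) + ((u 3).re * (w 3).im - (u 3).im * (w 3).re) +
    ((u 4).re * (w 4).im - (u 4).im * (w 4).re)) * h

lemma rp_smul_smul (c : ℂ) (u w : E5) : rp (c • u) (c • w) = ‖c‖ ^ 2 * rp u w := by
  rw [Complex.sq_norm, Complex.normSq_apply]
  simp only [rp_eq, Pi.smul_apply, smul_eq_mul, Complex.mul_re, Complex.mul_im]
  ring

lemma bil_smul_smul (c : ℂ) (u w : E5) : bil (c • u) (c • w) = c ^ 2 * bil u w := by
  simp only [bil_eq, Pi.smul_apply, smul_eq_mul]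
  ring

lemma rp_comm (u w : E5) : rp u w = rp w u := by simp only [rp_eq]; ring
lemma bil_comm (u w : E5) : bil u w = bil w u := by simp only [bil_eq]; ring

lemma Skew.q_smul {A : E5 →L[ℝ] E5} (hA : Skew A) (c : ℂ) (hc : ‖c‖ = 1) (z : E5) :
    q A (c • z) = q A z := by
  rw [q, hA.smul, om_smul_smul c hc, q]

lemma nn_smul (c : ℂ) (hc : ‖c‖ = 1) (z : E5) : nn (c • z) = nn z := by
  rw [nn, rp_smul_smul, hc, nn]; ring

lemma q_rsmul (A : E5 →L[ℝ] E5) (r : ℝ) (z : E5) : q A (r • z) = r ^ 2 * q A z := by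
  simp only [q, map_smul, smul_apply, smul_eq_mul]; ring

lemma nn_rsmul (r : ℝ) (z : E5) : nn (r • z) = r ^ 2 * nn z := by
  simp only [nn, map_smul, smul_apply, smul_eq_mul]; ring

lemma contDiff_q (A : E5 →L[ℝ] E5) {n : WithTop ℕ∞} : ContDiff ℝ n (q A) :=
  (om.contDiff.comp A.contDiff).clm_apply contDiff_id

lemma contDiff_nn {n : WithTop ℕ∞} : ContDiff ℝ n nn :=
  rp.contDiff.clm_apply contDiff_id

lemma Skew.hasFDerivAt_q {A : E5 →L[ℝ] E5} (hA : Skew A) (z : E5) :
    HasFDerivAt (q A) ((2 : ℝ) • om (A z)) z := by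
  have h := (om.hasFDerivAt.comp z A.hasFDerivAt).clm_apply (hasFDerivAt_id z)
  refine HasFDerivAt.congr_fderiv h (ContinuousLinearMap.ext fun w => ?_)
  simp [hA.om_skew w z, two_mul]

lemma hasFDerivAt_nn (z : E5) : HasFDerivAt nn ((2 : ℝ) • rp z) z := by
  have h := (rp.hasFDerivAt (x := z)).clm_apply (hasFDerivAt_id z)
  refine HasFDerivAt.congr_fderiv h (ContinuousLinearMap.ext fun w => ?_)
  simp [rp_comm w z, two_mul]

lemma hasFDerivAt_bil (z : E5) : HasFDerivAt (fun z => bil z z) ((2 : ℝ) • bil z) z := by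
  have h := (bil.hasFDerivAt (x := z)).clm_apply (hasFDerivAt_id z)
  refine HasFDerivAt.congr_fderiv h (ContinuousLinearMap.ext fun w => ?_)
  simp [bil_comm w z, two_mul]

lemma nem_q (A : E5 →L[ℝ] E5) : Nem (q A) := Nem.bilin om (Nem.clm A) Nem.id
lemma nem_nn : Nem nn := Nem.bilin rp Nem.id Nem.id

/-- The cubic vector field. -/
noncomputable def V (z : E5) : E5 :=
  (-q R2 z) • L1 z + (nn z - q R1 z) • L2 z + q R3 z • L3 z +
    (-q L2 z) • R1 z + (nn z - q L1 z) • R2 z + q L3 z • R3 z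

/-- The Hamiltonian of `V` on the unit sphere. -/
noncomputable def F (z : E5) : ℝ :=
  q L2 z * (1 - q R1 z) + q R2 z * (1 - q L1 z) + q L3 z * q R3 z

lemma nem_V : Nem V :=
  ((((((nem_q R2).neg.smul (Nem.clm L1)).add ((nem_nn.sub (nem_q R1)).smul (Nem.clm L2))).add
    ((nem_q R3).smul (Nem.clm L3))).add ((nem_q L2).neg.smul (Nem.clm R1))).add
    ((nem_nn.sub (nem_q L1)).smul (Nem.clm R2))).add ((nem_q L3).smul (Nem.clm R3))

lemma contDiff_V {n : WithTop ℕ∞} : ContDiff ℝ n V :=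
  ((((((contDiff_q R2).neg.smul L1.contDiff).add
    ((contDiff_nn.sub (contDiff_q R1)).smul L2.contDiff)).add
    ((contDiff_q R3).smul L3.contDiff)).add ((contDiff_q L2).neg.smul R1.contDiff)).add
    ((contDiff_nn.sub (contDiff_q L1)).smul R2.contDiff)).add ((contDiff_q L3).smul R3.contDiff)

lemma contDiff_F {n : WithTop ℕ∞} : ContDiff ℝ n F :=
  (((contDiff_q L2).mul (contDiff_const.sub (contDiff_q R1))).add
    ((contDiff_q R2).mul (contDiff_const.sub (contDiff_q L1)))).add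
    ((contDiff_q L3).mul (contDiff_q R3))

lemma V_rsmul (r : ℝ) (z : E5) : V (r • z) = r ^ 3 • V z := by
  simp only [V, q_rsmul, nn_rsmul, map_smul, smul_add, smul_smul]
  congr 1; congr 1; congr 1; congr 1; congr 1
  all_goals (congr 1; ring)

lemma V_smul (c : ℂ) (hc : ‖c‖ = 1) (z : E5) : V (c • z) = c • V z := by
  simp only [V, skew_L1.q_smul c hc, skew_L2.q_smul c hc, skew_L3.q_smul c hc,
    skew_R1.q_smul c hc, skew_R2.q_smul c hc, skew_R3.q_smul c hc, nn_smul c hc,
    skew_L1.smul, skew_L2.smul, skew_L3.smul, skew_R1.smul, skew_R2.smul, skew_R3.smul,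
    smul_add, smul_comm c]

lemma F_smul (c : ℂ) (hc : ‖c‖ = 1) (z : E5) : F (c • z) = F z := by
  simp only [F, skew_L1.q_smul c hc, skew_L2.q_smul c hc, skew_L3.q_smul c hc,
    skew_R1.q_smul c hc, skew_R2.q_smul c hc, skew_R3.q_smul c hc]

lemma rp_V (z : E5) : rp z (V z) = 0 := by
  rw [rp_comm]
  simp [V, skew_L1.rp_skew, skew_L2.rp_skew, skew_L3.rp_skew, skew_R1.rp_skew,
    skew_R2.rp_skew, skew_R3.rp_skew]

lemma bil_V (z : E5) : bil z (V z) = 0 := by
  rw [bil_comm]
  simp [V, skew_L1.bil_skew, skew_L2.bil_skew, skew_L3.bil_skew, skew_R1.bil_skew,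
    skew_R2.bil_skew, skew_R3.bil_skew]

lemma V_last (z : E5) : V z 4 = 0 := by
  simp [V, skew_L1.last, skew_L2.last, skew_L3.last, skew_R1.last, skew_R2.last, skew_R3.last]

lemma hasFDerivAt_F {z : E5} (hz : nn z = 1) : HasFDerivAt F ((2 : ℝ) • om (V z)) z := by
  have h := (((skew_L2.hasFDerivAt_q z).mul ((skew_R1.hasFDerivAt_q z).const_sub 1)).add
    ((skew_R2.hasFDerivAt_q z).mul ((skew_L1.hasFDerivAt_q z).const_sub 1))).add
    ((skew_L3.hasFDerivAt_q z).mul (skew_R3.hasFDerivAt_q z))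
  refine HasFDerivAt.congr_fderiv h (ContinuousLinearMap.ext fun w => ?_)
  simp [V, hz]
  ring

/-- The moment map together with the squared norm. -/
noncomputable def mu (z : E5) : Fin 7 → ℝ :=
  ![q L1 z, q L2 z, q L3 z, q R1 z, q R2 z, q R3 z, nn z]

/-- The reduced vector field. -/
noncomputable def W (m : Fin 7 → ℝ) : Fin 7 → ℝ :=
  ![2 * ((m 6 - m 3) * m 2 - m 5 * m 1), 2 * (m 5 * m 0 + m 4 * m 2),
    2 * (-m 4 * m 1 - (m 6 - m 3) * m 0), 2 * ((m 6 - m 0) * m 5 - m 2 * m 4),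
    2 * (m 2 * m 3 + m 1 * m 5), 2 * (-m 1 * m 4 - (m 6 - m 0) * m 3), 0]

lemma contDiff_W {n : WithTop ℕ∞} : ContDiff ℝ n W := by
  rw [contDiff_pi]
  intro i
  fin_cases i <;> simp [W] <;> fun_prop

lemma continuous_mu : Continuous mu := by
  have h := fun A => (contDiff_q A (n := 0)).continuous
  have h' := (contDiff_nn (n := 0)).continuous
  refine continuous_pi fun i => ?_
  fin_cases i
  exacts [h _, h _, h _, h _, h _, h _, h']

lemma mu_smul (c : ℂ) (hc : ‖c‖ = 1) (z : E5) : mu (c • z) = mu z := by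
  simp only [mu, skew_L1.q_smul c hc, skew_L2.q_smul c hc, skew_L3.q_smul c hc,
    skew_R1.q_smul c hc, skew_R2.q_smul c hc, skew_R3.q_smul c hc, nn_smul c hc]

macro "comm_tac" : tactic =>
  `(tactic| (simp only [V, map_add, map_smul, smul_eq_mul]
             generalize nn _ = n
             simp [q, om_eq, L1_apply, L2_apply, L3_apply, R1_apply, R2_apply, R3_apply]
             ring))

lemma om_L1_V (z : E5) : om (L1 z) (V z) = (nn z - q R1 z) * q L3 z - q R3 z * q L2 z := by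
  comm_tac
lemma om_L2_V (z : E5) : om (L2 z) (V z) = q R3 z * q L1 z + q R2 z * q L3 z := by
  comm_tac
lemma om_L3_V (z : E5) : om (L3 z) (V z) = -q R2 z * q L2 z - (nn z - q R1 z) * q L1 z := by
  comm_tac
lemma om_R1_V (z : E5) : om (R1 z) (V z) = (nn z - q L1 z) * q R3 z - q L3 z * q R2 z := by
  comm_tac
lemma om_R2_V (z : E5) : om (R2 z) (V z) = q L3 z * q R1 z + q L2 z * q R3 z := by
  comm_tac
lemma om_R3_V (z : E5) : om (R3 z) (V z) = -q L2 z * q R2 z - (nn z - q L1 z) * q R1 z := by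
  comm_tac

lemma hasDerivAt_mu {y : ℝ → E5} {t : ℝ} (hy : HasDerivAt y (V (y t)) t) :
    HasDerivAt (fun s => mu (y s)) (W (mu (y t))) t := by
  rw [hasDerivAt_pi]
  intro i
  fin_cases i
  · simpa [mu, W, om_L1_V, Function.comp_def] using (skew_L1.hasFDerivAt_q (y t)).comp_hasDerivAt t hy
  · simpa [mu, W, om_L2_V, Function.comp_def] using (skew_L2.hasFDerivAt_q (y t)).comp_hasDerivAt t hy
  · simpa [mu, W, om_L3_V, Function.comp_def] using (skew_L3.hasFDerivAt_q (y t)).comp_hasDerivAt t hy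
  · simpa [mu, W, om_R1_V, Function.comp_def] using (skew_R1.hasFDerivAt_q (y t)).comp_hasDerivAt t hy
  · simpa [mu, W, om_R2_V, Function.comp_def] using (skew_R2.hasFDerivAt_q (y t)).comp_hasDerivAt t hy
  · simpa [mu, W, om_R3_V, Function.comp_def] using (skew_R3.hasFDerivAt_q (y t)).comp_hasDerivAt t hy
  · simpa [mu, W, rp_V, Function.comp_def] using (hasFDerivAt_nn (y t)).comp_hasDerivAt t hy

end Crest.Agent.R205
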