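import Crest.Agent.R205.Alg

/-!
The three zeros of the reduced vector field on a product of two 2-spheres, and the corresponding
points of the quadric surface.
-/

set_option autoImplicit false

open scoped ContDiff Topology NNReal
open Set Metric Crest.GeometryTopology.Quadric

namespace Crest.Agent.R205

lemma norm_u {z : E5} (h4 : z 4 = 0) : q L1 z ^ 2 + q L2 z ^ 2 + q L3 z ^ 2 =
    nn z ^ 2 - (bil z z).re ^ 2 - (bil z z).im ^ 2 := by
  simp [q, nn, om_eq, rp_eq, bil_eq, L1_apply, L2_apply, L3_apply, h4]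
  ring

lemma norm_v {z : E5} (h4 : z 4 = 0) : q R1 z ^ 2 + q R2 z ^ 2 + q R3 z ^ 2 =
    nn z ^ 2 - (bil z z).re ^ 2 - (bil z z).im ^ 2 := by
  simp [q, nn, om_eq, rp_eq, bil_eq, R1_apply, R2_apply, R3_apply, h4]
  ring

/-- The point `((a, b, 0), (a, b, 0), 1)`. -/
noncomputable def pt (a b : ℝ) : Fin 7 → ℝ := ![a, b, 0, a, b, 0, 1]

/-- The three admissible pairs. -/
def Adm (a b : ℝ) : Prop :=
  (a = 1 ∧ b = 0) ∨ (a = -1 / 2 ∧ b = √3 / 2) ∨ (a = -1 / 2 ∧ b = -√3 / 2)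

lemma sqrt3_sq : √3 ^ 2 = (3 : ℝ) := Real.sq_sqrt (by norm_num)

lemma Adm.sq {a b : ℝ} (h : Adm a b) : a ^ 2 + b ^ 2 = 1 := by
  rcases h with ⟨rfl, rfl⟩ | ⟨rfl, rfl⟩ | ⟨rfl, rfl⟩
  · norm_num
  · linear_combination (1 / 4) * sqrt3_sq
  · linear_combination (1 / 4) * sqrt3_sq

lemma Adm.W_pt {a b : ℝ} (h : Adm a b) : W (pt a b) = 0 := by
  have key : -b * b - (1 - a) * a = 0 := by
    rcases h with ⟨rfl, rfl⟩ | ⟨rfl, rfl⟩ | ⟨rfl, rfl⟩
    · norm_num
    · linear_combination (-1 / 4) * sqrt3_sq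
    · linear_combination (-1 / 4) * sqrt3_sq
  ext i
  fin_cases i <;> simp [W, pt] <;> linarith

lemma crit {m : Fin 7 → ℝ} (hW : W m = 0) (h6 : m 6 = 1)
    (hu : m 0 ^ 2 + m 1 ^ 2 + m 2 ^ 2 = 1) (hv : m 3 ^ 2 + m 4 ^ 2 + m 5 ^ 2 = 1) :
    ∃ a b, Adm a b ∧ m = pt a b := by
  have e0 := congrFun hW 0
  have e1 := congrFun hW 1
  have e2 := congrFun hW 2
  have e3 := congrFun hW 3
  have e4 := congrFun hW 4
  have e5 := congrFun hW 5
  simp only [W, h6, Matrix.cons_val, Pi.zero_apply] at e0 e1 e2 e3 e4 e5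
  have h2 : m 2 = 0 := by linarith
  have h5 : m 5 = 0 := by linarith
  have h03 : m 3 = m 0 := by linarith
  rw [h2] at hu
  rw [h5, h03] at hv
  rw [h03] at e2
  have hp : m 1 * m 4 = -((1 - m 0) * m 0) := by linarith
  have hu' : m 1 ^ 2 = 1 - m 0 ^ 2 := by linarith
  have hv' : m 4 ^ 2 = 1 - m 0 ^ 2 := by linarith
  have hk : (1 - m 0) ^ 2 * (1 + 2 * m 0) = 0 := by
    have : (m 1 * m 4) ^ 2 = m 1 ^ 2 * m 4 ^ 2 := by ring
    rw [hp, hu', hv'] at this
    linear_combination -this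
  have fin : ∀ a b, m 0 = a → m 1 = b → m 4 = b → m = pt a b := by
    intro a b ha hb hb'
    ext i
    fin_cases i <;> simp [pt, *]
  rcases mul_eq_zero.1 hk with h | h
  · have h0 : m 0 = 1 := by
      have := pow_eq_zero_iff (two_ne_zero) |>.1 h
      linarith
    have h1 : m 1 = 0 := by
      rw [h0] at hu'
      exact pow_eq_zero_iff (two_ne_zero) |>.1 (by linarith)
    have h4 : m 4 = 0 := by
      rw [h0] at hv'
      exact pow_eq_zero_iff (two_ne_zero) |>.1 (by linarith)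
    exact ⟨1, 0, Or.inl ⟨rfl, rfl⟩, fin _ _ h0 h1 h4⟩
  · have h0 : m 0 = -1 / 2 := by linarith
    rw [h0] at hp hu' hv'
    have h14 : m 4 = m 1 := by
      have : (m 4 - m 1) ^ 2 = 0 := by linear_combination hu' + hv' - 2 * hp
      have := pow_eq_zero_iff (two_ne_zero) |>.1 this
      linarith
    have : (m 1 - √3 / 2) * (m 1 + √3 / 2) = 0 := by
      linear_combination hu' - (1 / 4) * sqrt3_sq
    rcases mul_eq_zero.1 this with h1 | h1
    · exact ⟨_, _, Or.inr (Or.inl ⟨rfl, rfl⟩), fin _ _ h0 (by linarith) (by linarith)⟩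
    · exact ⟨_, _, Or.inr (Or.inr ⟨rfl, rfl⟩), fin _ _ h0 (by linarith) (by linarith)⟩

/-- A vector on the line over the point `pt a b`. -/
noncomputable def zv (a b : ℝ) : E5 := ![0, -(b : ℂ), (a : ℂ), Complex.I, 0]

lemma row0 {z : E5} (h4 : z 4 = 0) :
    ((q L1 z - q R1 z : ℝ) : ℂ) * z 1 + ((q L2 z - q R2 z : ℝ) : ℂ) * z 2 +
      ((q L3 z - q R3 z : ℝ) : ℂ) * z 3 =
      2 * Complex.I * (z 0 * (nn z : ℂ) - (starRingEnd ℂ) (z 0) * bil z z) := by
  apply Complex.ext <;>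
  simp [q, nn, om_eq, rp_eq, bil_eq, L1_apply, L2_apply, L3_apply, R1_apply, R2_apply, R3_apply,
    h4] <;> ring

lemma row1 {z : E5} (h4 : z 4 = 0) :
    -((q L1 z - q R1 z : ℝ) : ℂ) * z 0 + ((q L3 z + q R3 z : ℝ) : ℂ) * z 2 -
      ((q L2 z + q R2 z : ℝ) : ℂ) * z 3 =
      2 * Complex.I * (z 1 * (nn z : ℂ) - (starRingEnd ℂ) (z 1) * bil z z) := by
  apply Complex.ext <;>
  simp [q, nn, om_eq, rp_eq, bil_eq, L1_apply, L2_apply, L3_apply, R1_apply, R2_apply, R3_apply,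
    h4] <;> ring

lemma row2 {z : E5} (h4 : z 4 = 0) :
    -((q L2 z - q R2 z : ℝ) : ℂ) * z 0 - ((q L3 z + q R3 z : ℝ) : ℂ) * z 1 +
      ((q L1 z + q R1 z : ℝ) : ℂ) * z 3 =
      2 * Complex.I * (z 2 * (nn z : ℂ) - (starRingEnd ℂ) (z 2) * bil z z) := by
  apply Complex.ext <;>
  simp [q, nn, om_eq, rp_eq, bil_eq, L1_apply, L2_apply, L3_apply, R1_apply, R2_apply, R3_apply,
    h4] <;> ring

lemma eq_smul_zv {z : E5} (h4 : z 4 = 0) (hb : bil z z = 0) {a b : ℝ} (hm : mu z = pt a b) :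
    z = (-Complex.I * z 3) • zv a b := by
  have e0 : q L1 z = a := congrFun hm 0
  have e1 : q L2 z = b := congrFun hm 1
  have e2 : q L3 z = 0 := congrFun hm 2
  have e3 : q R1 z = a := congrFun hm 3
  have e4 : q R2 z = b := congrFun hm 4
  have e5 : q R3 z = 0 := congrFun hm 5
  have e6 : nn z = 1 := congrFun hm 6
  have r0 := row0 h4
  have r1 := row1 h4
  have r2 := row2 h4
  rw [e0, e1, e2, e3, e4, e5, e6, hb] at r0 r1 r2
  push_cast at r0 r1 r2
  have hI : Complex.I * Complex.I = -1 := Complex.I_mul_I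
  ext j
  fin_cases j
  · simp only [zv, Fin.zero_eta, Pi.smul_apply, Matrix.cons_val, smul_eq_mul]
    linear_combination (Complex.I / 2) * r0 + (z 0) * hI
  · simp only [zv, Fin.mk_one, Pi.smul_apply, Matrix.cons_val, smul_eq_mul]
    linear_combination (Complex.I / 2) * r1 + (z 1) * hI
  · simp only [zv, Fin.reduceFinMk, Pi.smul_apply, Matrix.cons_val, smul_eq_mul]
    linear_combination (Complex.I / 2) * r2 + (z 2) * hI
  · simp only [zv, Fin.reduceFinMk, Pi.smul_apply, Matrix.cons_val, smul_eq_mul]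
    linear_combination (z 3) * hI
  · simp [zv, h4]

/-- A unit vector on the line over `pt a b`. -/
noncomputable def zu (a b : ℝ) : E5 := ((1 + Complex.I) / 2) • zv a b

lemma zu_last (a b : ℝ) : zu a b 4 = 0 := by simp [zu, zv]

lemma nn_zu {a b : ℝ} (h : a ^ 2 + b ^ 2 = 1) : nn (zu a b) = 1 := by
  simp [nn, rp_eq, zu, zv]
  linear_combination (1 / 2) * h

lemma bil_zu {a b : ℝ} (h : a ^ 2 + b ^ 2 = 1) : bil (zu a b) (zu a b) = 0 := by
  rw [zu, bil_smul_smul]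
  have h' : (a : ℂ) ^ 2 + (b : ℂ) ^ 2 = 1 := by exact_mod_cast h
  have : bil (zv a b) (zv a b) = 0 := by
    simp [bil_eq, zv]
    linear_combination h'
  rw [this, mul_zero]

lemma zu_mem {a b : ℝ} (h : a ^ 2 + b ^ 2 = 1) : zu a b ∈ unitCone :=
  mem_unitCone.2 ⟨nn_zu h, bil_zu h⟩

lemma mu_zu {a b : ℝ} (h : a ^ 2 + b ^ 2 = 1) : mu (zu a b) = pt a b := by
  ext i
  fin_cases i
  · simp [mu, pt, q, om_eq, L1_apply, zu, zv]; ring
  · simp [mu, pt, q, om_eq, L2_apply, zu, zv]; ring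
  · simp [mu, pt, q, om_eq, L3_apply, zu, zv]
  · simp [mu, pt, q, om_eq, R1_apply, zu, zv]; ring
  · simp [mu, pt, q, om_eq, R2_apply, zu, zv]; ring
  · simp [mu, pt, q, om_eq, R3_apply, zu, zv]
  · simpa [mu, pt] using nn_zu h

lemma span_eq_of_mu {z : E5} (h4 : z 4 = 0) (hz : z ∈ unitCone) {a b : ℝ} (hm : mu z = pt a b) :
    Submodule.span ℂ {z} = Submodule.span ℂ {zv a b} := by
  obtain ⟨h1, h2⟩ := mem_unitCone.1 hz
  have h := eq_smul_zv h4 h2 hm
  have hc : -Complex.I * z 3 ≠ 0 := by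
    intro hc
    rw [hc, zero_smul] at h
    rw [h] at h1
    simp at h1
  conv_lhs => rw [h]
  exact Submodule.span_singleton_smul_eq (IsUnit.mk0 _ hc) _

lemma span_zv_inj {a b a' b' : ℝ}
    (h : Submodule.span ℂ {zv a b} = Submodule.span ℂ {zv a' b'}) : b = b' := by
  have hmem : zv a b ∈ Submodule.span ℂ {zv a' b'} := h ▸ Submodule.mem_span_singleton_self _
  obtain ⟨c, hc⟩ := Submodule.mem_span_singleton.1 hmem
  have h3 := congrFun hc 3
  have h1 := congrFun hc 1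
  simp only [zv, Pi.smul_apply, Matrix.cons_val, smul_eq_mul] at h3 h1
  have hc1 : c = 1 := by
    have : (c - 1) * Complex.I = 0 := by linear_combination h3
    rcases mul_eq_zero.1 this with h | h
    · linear_combination h
    · exact absurd h Complex.I_ne_zero
  rw [hc1] at h1
  have : (b : ℂ) = b' := by linear_combination h1
  exact_mod_cast this

end Crest.Agent.R205
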