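import Crest.Agent.R205.Crit

/-!
The short-time flow of the cubic field on the unit ball and its dynamical properties.
-/

set_option autoImplicit false

open scoped ContDiff Topology NNReal
open Set Metric Crest.GeometryTopology.Quadric

namespace Crest.Agent.R205

lemma nn_eq_sum (z : E5) : nn z = ‖z 0‖ ^ 2 + ‖z 1‖ ^ 2 + ‖z 2‖ ^ 2 + ‖z 3‖ ^ 2 + ‖z 4‖ ^ 2 := by
  simp only [nn, rp_eq, Complex.sq_norm, Complex.normSq_apply]

lemma nn_nonneg (z : E5) : 0 ≤ nn z := by rw [nn_eq_sum]; positivity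

lemma norm_le_one_of_nn {z : E5} (hz : nn z ≤ 1) : z ∈ closedBall (0 : E5) 1 := by
  rw [mem_closedBall_zero_iff, pi_norm_le_iff_of_nonneg zero_le_one]
  rw [nn_eq_sum] at hz
  intro j
  have h : ‖z j‖ ^ 2 ≤ 1 := by
    fin_cases j <;> simp only [Fin.zero_eta, Fin.mk_one, Fin.reduceFinMk] <;>
      nlinarith [sq_nonneg ‖z 0‖, sq_nonneg ‖z 1‖, sq_nonneg ‖z 2‖, sq_nonneg ‖z 3‖,
        sq_nonneg ‖z 4‖]
  nlinarith [norm_nonneg (z j)]

/-- The short-time flow with all the properties used later. -/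
structure Good (ε : ℝ) (φ : ℝ × E5 → E5) : Prop where
  pos : 0 < ε
  smooth : ∀ t ∈ Icc 0 ε, ∀ z, nn z ≤ 1 → ContDiffAt ℝ ω φ (t, z)
  zero : ∀ z, nn z ≤ 1 → φ (0, z) = z
  deriv : ∀ z, nn z ≤ 1 → ∀ t ∈ Icc 0 ε, HasDerivAt (fun s => φ (s, z)) (V (φ (t, z))) t
  lipV : ∃ L : ℝ≥0, LipschitzOnWith L V (closedBall 0 1) ∧ ε * L ≤ 1 / 2
  lipW : ∃ (L : ℝ≥0) (s : Set (Fin 7 → ℝ)), LipschitzOnWith L W s ∧ ε * L < 1 / 2 ∧
    ∀ z ∈ closedBall (0 : E5) 1, mu z ∈ s
  small : ∀ z ∈ closedBall (0 : E5) 1, 2 * ε * ‖V z‖ ≤ 1 / 4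

theorem exists_good : ∃ ε φ, Good ε φ := by
  obtain ⟨κ, hκ, φ, hφ, hφ'⟩ := exists_flow_cubic nem_V (contDiff_V (n := 0)).continuous V_rsmul
  obtain ⟨LV, hLV⟩ := (contDiff_V (n := 1)).contDiffOn.exists_lipschitzOnWith one_ne_zero
    (convex_closedBall (0 : E5) 1) (isCompact_closedBall _ _)
  obtain ⟨R, hR⟩ := (isCompact_closedBall (0 : E5) 1).exists_bound_of_continuousOn
    continuous_mu.continuousOn
  obtain ⟨LW, hLW⟩ := (contDiff_W (n := 1)).contDiffOn.exists_lipschitzOnWith one_ne_zero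
    (convex_closedBall (0 : Fin 7 → ℝ) R) (isCompact_closedBall _ _)
  obtain ⟨M, hM⟩ := (isCompact_closedBall (0 : E5) 1).exists_bound_of_continuousOn
    (contDiff_V (n := 0)).continuous.continuousOn
  have hM0 : 0 ≤ M := (norm_nonneg _).trans (hM 0 (mem_closedBall_self zero_le_one))
  set S : ℝ := LV + LW + M + 1 with hS
  have hS0 : 0 < S := by positivity
  set ε : ℝ := min (κ / 2) (1 / (8 * S)) with hε
  have hε0 : 0 < ε := by positivity
  have hε1 : ε < κ := (min_le_left _ _).trans_lt (by linarith)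
  have hε2 : ε * S ≤ 1 / 8 := by
    calc ε * S ≤ 1 / (8 * S) * S := by gcongr; exact min_le_right _ _
      _ = 1 / 8 := by field_simp
  have hball : ∀ z, nn z ≤ 1 → z ∈ ball (0 : E5) 2 := fun z hz =>
    closedBall_subset_ball (by norm_num) (norm_le_one_of_nn hz)
  have hI : ∀ t ∈ Icc 0 ε, t ∈ Ioo (-κ) κ := fun t ht => ⟨by linarith [ht.1], by linarith [ht.2]⟩
  have h1 : 0 ≤ ε * LV := by positivity
  have h2 : 0 ≤ ε * LW := by positivity
  have h3 : 0 ≤ ε * M := by positivity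
  have h4 : ε * S = ε * LV + ε * LW + ε * M + ε := by rw [hS]; ring
  refine ⟨ε, φ, hε0, fun t ht z hz => hφ _ ⟨hI t ht, hball z hz⟩,
    fun z hz => (hφ' z (hball z hz)).1, fun z hz t ht => (hφ' z (hball z hz)).2 t (hI t ht),
    ⟨LV, hLV, by linarith⟩, ⟨LW, _, hLW, by linarith, fun z hz => ?_⟩, fun z hz => ?_⟩
  · rw [mem_closedBall_zero_iff]; exact hR z hz
  · calc 2 * ε * ‖V z‖ ≤ 2 * ε * M := by gcongr; exact hM z hz
      _ ≤ 1 / 4 := by linarith

lemma const_of_deriv_zero {G : Type*} [NormedAddCommGroup G] [NormedSpace ℝ G] {f : ℝ → G}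
    {ε : ℝ} (hf : ∀ t ∈ Icc 0 ε, HasDerivAt f 0 t) : ∀ t ∈ Icc 0 ε, f t = f 0 :=
  constant_of_has_deriv_right_zero (fun t ht => (hf t ht).continuousAt.continuousWithinAt)
    (fun t ht => (hf t (Ico_subset_Icc_self ht)).hasDerivWithinAt)

namespace Good

variable {ε : ℝ} {φ : ℝ × E5 → E5} (h : Good ε φ)
include h

lemma nn_eq {z : E5} (hz : nn z ≤ 1) {t : ℝ} (ht : t ∈ Icc 0 ε) : nn (φ (t, z)) = nn z := by
  have := const_of_deriv_zero (f := fun s => nn (φ (s, z))) (ε := ε) (fun s hs => by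
    simpa [rp_V, Function.comp_def] using
      (hasFDerivAt_nn (φ (s, z))).comp_hasDerivAt s (h.deriv z hz s hs)) t ht
  simpa [h.zero z hz] using this

lemma bil_eq' {z : E5} (hz : nn z ≤ 1) {t : ℝ} (ht : t ∈ Icc 0 ε) :
    bil (φ (t, z)) (φ (t, z)) = bil z z := by
  have := const_of_deriv_zero (f := fun s => bil (φ (s, z)) (φ (s, z))) (ε := ε) (fun s hs => by
    simpa [bil_V, Function.comp_def] using
      (hasFDerivAt_bil (φ (s, z))).comp_hasDerivAt s (h.deriv z hz s hs)) t ht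
  simpa [h.zero z hz] using this

lemma last_eq {z : E5} (hz : nn z ≤ 1) {t : ℝ} (ht : t ∈ Icc 0 ε) : φ (t, z) 4 = z 4 := by
  have := const_of_deriv_zero (f := fun s => φ (s, z) 4) (ε := ε) (fun s hs => by
    simpa [V_last] using hasDerivAt_pi.1 (h.deriv z hz s hs) 4) t ht
  simpa [h.zero z hz] using this

lemma mem_ball {z : E5} (hz : nn z ≤ 1) {t : ℝ} (ht : t ∈ Icc 0 ε) :
    φ (t, z) ∈ closedBall (0 : E5) 1 :=
  norm_le_one_of_nn (by rw [h.nn_eq hz ht]; exact hz)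

lemma mem_cone {z : E5} (hz : z ∈ unitCone) {t : ℝ} (ht : t ∈ Icc 0 ε) : φ (t, z) ∈ unitCone := by
  obtain ⟨h1, h2⟩ := mem_unitCone.1 hz
  have h1' : nn z = 1 := h1
  exact mem_unitCone.2 ⟨(h.nn_eq h1'.le ht).trans h1', (h.bil_eq' h1'.le ht).trans h2⟩

lemma smul_eq {z : E5} (hz : nn z ≤ 1) (c : ℂ) (hc : ‖c‖ = 1) {t : ℝ} (ht : t ∈ Icc 0 ε) :
    φ (t, c • z) = c • φ (t, z) := by
  obtain ⟨L, hL, -⟩ := h.lipV
  have hz' : nn (c • z) ≤ 1 := by rwa [nn_smul c hc]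
  have hd : ∀ s ∈ Icc 0 ε, HasDerivAt (fun s => c • φ (s, z)) (V (c • φ (s, z))) s := by
    intro s hs
    rw [V_smul c hc]
    exact (h.deriv z hz s hs).const_smul c
  refine ODE_solution_unique_of_mem_Icc_right (v := fun _ => V) (s := fun _ => closedBall 0 1)
    (K := L) (f := fun s => φ (s, c • z)) (g := fun s => c • φ (s, z)) (a := 0) (b := ε)
    (fun _ _ => hL) (fun s hs => (h.deriv _ hz' s hs).continuousAt.continuousWithinAt)
    (fun s hs => (h.deriv _ hz' s (Ico_subset_Icc_self hs)).hasDerivWithinAt)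
    (fun s hs => h.mem_ball hz' (Ico_subset_Icc_self hs))
    (fun s hs => (hd s hs).continuousAt.continuousWithinAt)
    (fun s hs => (hd s (Ico_subset_Icc_self hs)).hasDerivWithinAt)
    (fun s hs => norm_le_one_of_nn ?_) ?_ ht
  · rw [nn_smul c hc, h.nn_eq hz (Ico_subset_Icc_self hs)]; exact hz
  · simp [h.zero _ hz', h.zero _ hz]

lemma disp {z : E5} (hz : nn z ≤ 1) : ‖φ (ε, z) - z‖ ≤ 2 * ε * ‖V z‖ := by
  obtain ⟨L, hL, hL'⟩ := h.lipV
  have := displacement hL (m := fun s => φ (s, z)) h.pos.le (h.deriv z hz)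
    (fun t ht => h.mem_ball hz ht) hL' ε ⟨h.pos.le, le_rfl⟩
  simpa [h.zero z hz] using this

lemma W_eq_zero {z : E5} (hz : nn z ≤ 1) (hm : mu (φ (ε, z)) = mu z) : W (mu z) = 0 := by
  obtain ⟨L, s, hL, hL', hs⟩ := h.lipW
  have := eq_zero_of_short_period hL (m := fun s => mu (φ (s, z))) h.pos
    (fun t ht => hasDerivAt_mu (h.deriv z hz t ht)) (fun t ht => hs _ (h.mem_ball hz ht)) hL'
    (by simpa [h.zero z hz] using hm)
  simpa [h.zero z hz] using this

lemma mu_eq {z : E5} (hz : nn z ≤ 1) (hW : W (mu z) = 0) : mu (φ (ε, z)) = mu z := by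
  obtain ⟨L, s, hL, hL', hs⟩ := h.lipW
  have := displacement hL (m := fun s => mu (φ (s, z))) h.pos.le
    (fun t ht => hasDerivAt_mu (h.deriv z hz t ht)) (fun t ht => hs _ (h.mem_ball hz ht)) hL'.le
    ε ⟨h.pos.le, le_rfl⟩
  simpa [h.zero z hz, hW, sub_eq_zero] using this

end Good

/-- The reflection in the last coordinate axis. -/
noncomputable def refl4 (z : E5) : E5 := ![-z 0, -z 1, -z 2, -z 3, z 4]

lemma refl4_of_last {z : E5} (h4 : z 4 = 0) : refl4 z = -z := by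
  ext j; fin_cases j <;> simp [refl4, h4]

namespace Good

variable {ε : ℝ} {φ : ℝ × E5 → E5} (h : Good ε φ)
include h

lemma last_eq_zero {z : E5} (hz : z ∈ unitCone) {c : ℂ} (hc : c • z = refl4 (φ (ε, z))) :
    z 4 = 0 := by
  obtain ⟨h1, h2⟩ := mem_unitCone.1 hz
  have h1' : nn z = 1 := h1
  by_contra h4
  have hε : ε ∈ Icc 0 ε := ⟨h.pos.le, le_rfl⟩
  have e4 := congrFun hc 4
  simp only [refl4, Pi.smul_apply, Matrix.cons_val, smul_eq_mul, h.last_eq h1'.le hε] at e4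
  have hc1 : c = 1 := by
    have : (c - 1) * z 4 = 0 := by linear_combination e4
    rcases mul_eq_zero.1 this with h' | h'
    · linear_combination h'
    · exact absurd h' h4
  rw [hc1, one_smul] at hc
  have hd : ‖φ (ε, z) - z‖ ≤ 1 / 4 := (h.disp h1'.le).trans (h.small z (norm_le_one_of_nn h1'.le))
  have key : ∀ j, φ (ε, z) j = - z j → ‖z j‖ ^ 2 ≤ 1 / 64 := by
    intro j hj
    have := (norm_le_pi_norm (φ (ε, z) - z) j).trans hd
    rw [Pi.sub_apply, hj, show -z j - z j = -(2 * z j) by ring, norm_neg, norm_mul] at this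
    simp only [Complex.norm_ofNat] at this
    nlinarith [norm_nonneg (z j)]
  have k0 := key 0 (by have := congrFun hc 0; simp [refl4] at this; simp [this])
  have k1 := key 1 (by have := congrFun hc 1; simp [refl4] at this; simp [this])
  have k2 := key 2 (by have := congrFun hc 2; simp [refl4] at this; simp [this])
  have k3 := key 3 (by have := congrFun hc 3; simp [refl4] at this; simp [this])
  have k4 : ‖z 4‖ ^ 2 ≤ ‖z 0‖ ^ 2 + ‖z 1‖ ^ 2 + ‖z 2‖ ^ 2 + ‖z 3‖ ^ 2 := by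
    rw [bil_eq] at h2
    have : z 4 ^ 2 = -(z 0 ^ 2 + z 1 ^ 2 + z 2 ^ 2 + z 3 ^ 2) := by linear_combination h2
    rw [← norm_pow, this, norm_neg, ← norm_pow, ← norm_pow, ← norm_pow, ← norm_pow]
    exact (norm_add_le _ _).trans (add_le_add ((norm_add_le _ _).trans
      (add_le_add (norm_add_le _ _) le_rfl)) le_rfl)
  rw [nn_eq_sum] at h1'
  linarith

lemma span_of_fixed {z : E5} (hz : z ∈ unitCone)
    (hf : refl4 (φ (ε, z)) ∈ Submodule.span ℂ {z}) :
    ∃ a b, Adm a b ∧ Submodule.span ℂ {z} = Submodule.span ℂ {zv a b} := by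
  obtain ⟨c, hc⟩ := Submodule.mem_span_singleton.1 hf
  obtain ⟨h1, h2⟩ := mem_unitCone.1 hz
  have h1' : nn z = 1 := h1
  have hε : ε ∈ Icc 0 ε := ⟨h.pos.le, le_rfl⟩
  have h4 := h.last_eq_zero hz hc
  rw [refl4_of_last ((h.last_eq h1'.le hε).trans h4)] at hc
  have hy : φ (ε, z) = (-c) • z := by rw [neg_smul, hc, neg_neg]
  have hn : ‖-c‖ = 1 := by
    have := h.nn_eq h1'.le hε
    rw [hy, nn, rp_smul_smul, h1, h1', mul_one] at this
    nlinarith [norm_nonneg (-c)]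
  have hW := h.W_eq_zero h1'.le (by rw [hy, mu_smul _ hn])
  obtain ⟨a, b, hab, hm⟩ := crit hW h1' (by simpa [mu, h1', h2] using norm_u h4)
    (by simpa [mu, h1', h2] using norm_v h4)
  exact ⟨a, b, hab, span_eq_of_mu h4 hz hm⟩

lemma fixed_of_adm {a b : ℝ} (hab : Adm a b) :
    refl4 (φ (ε, zu a b)) ∈ Submodule.span ℂ {zv a b} := by
  have hε : ε ∈ Icc 0 ε := ⟨h.pos.le, le_rfl⟩
  have h1 := nn_zu hab.sq
  have hm := h.mu_eq h1.le (by rw [mu_zu hab.sq, hab.W_pt])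
  rw [mu_zu hab.sq] at hm
  have h4 : φ (ε, zu a b) 4 = 0 := (h.last_eq h1.le hε).trans (zu_last a b)
  rw [refl4_of_last h4, ← span_eq_of_mu h4 (h.mem_cone (zu_mem hab.sq) hε) hm]
  exact Submodule.neg_mem _ (Submodule.mem_span_singleton_self _)

end Good

end Crest.Agent.R205
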