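import Crest.Agent.R205.Good

/-!
The Hamiltonian isotopy: a rotation by `π t` in two planes composed with the short-time flow.
-/

set_option autoImplicit false

open scoped ContDiff Topology NNReal
open Set Metric Real Crest.GeometryTopology.Quadric

namespace Crest.Agent.R205

noncomputable def P : E5 →L[ℝ] E5 :=
  mkA (fun z => ![z 0, z 1, z 2, z 3, 0]) (by lin_tac) (by lin_tac)
noncomputable def P4 : E5 →L[ℝ] E5 :=
  mkA (fun z => ![0, 0, 0, 0, z 4]) (by lin_tac) (by lin_tac)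

lemma P_apply (z : E5) : P z = ![z 0, z 1, z 2, z 3, 0] := rfl
lemma P4_apply (z : E5) : P4 z = ![0, 0, 0, 0, z 4] := rfl

/-- The rotation by the angle `π t`. -/
noncomputable def g (t : ℝ) : E5 →L[ℝ] E5 := cos (π * t) • P + sin (π * t) • L1 + P4

lemma g_apply (t : ℝ) (z : E5) : g t z =
    ![cos (π * t) * z 0 - sin (π * t) * z 1, cos (π * t) * z 1 + sin (π * t) * z 0,
      cos (π * t) * z 2 - sin (π * t) * z 3, cos (π * t) * z 3 + sin (π * t) * z 2, z 4] := by
  simp only [g, add_apply, smul_apply, P_apply, L1_apply, P4_apply]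
  generalize cos (π * t) = c
  generalize sin (π * t) = s
  ext j; fin_cases j <;> simp <;> ring

lemma contDiff_g {n : WithTop ℕ∞} : ContDiff ℝ n g := by
  unfold g
  fun_prop

lemma hasDerivAt_g (t : ℝ) :
    HasDerivAt g ((-sin (π * t) * π) • P + (cos (π * t) * π) • L1) t := by
  have h1 : HasDerivAt (fun s : ℝ => π * s) π t := by simpa using (hasDerivAt_id t).const_mul π
  exact ((h1.cos.smul_const P).add (h1.sin.smul_const L1)).add_const P4

lemma deriv_g_apply (t : ℝ) (z : E5) :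
    ((-sin (π * t) * π) • P + (cos (π * t) * π) • L1) z = π • L1 (g t z) := by
  simp only [g_apply, add_apply, smul_apply, P_apply, L1_apply]
  generalize cos (π * t) = c
  generalize sin (π * t) = s
  ext j; fin_cases j <;> simp <;> ring

lemma g_zero (z : E5) : g 0 z = z := by
  rw [g_apply]; ext j; fin_cases j <;> simp

lemma g_one (z : E5) : g 1 z = refl4 z := by
  rw [g_apply]; ext j; fin_cases j <;> simp [refl4]

lemma g_smul (t : ℝ) (c : ℂ) (z : E5) : g t (c • z) = c • g t z := by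
  simp only [g_apply]
  generalize cos (π * t) = a
  generalize sin (π * t) = s
  ext j; fin_cases j <;> simp <;> ring

lemma g_neg_g (t : ℝ) (z : E5) : g (-t) (g t z) = z := by
  have h : (cos (π * t) : ℂ) ^ 2 + (sin (π * t) : ℂ) ^ 2 = 1 := by
    exact_mod_cast cos_sq_add_sin_sq (π * t)
  simp only [g_apply, mul_neg, cos_neg, sin_neg]
  generalize cos (π * t) = a at h ⊢
  generalize sin (π * t) = s at h ⊢
  ext j; fin_cases j <;> simp
  · linear_combination (z 0) * h
  · linear_combination (z 1) * h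
  · linear_combination (z 2) * h
  · linear_combination (z 3) * h

lemma om_g (t : ℝ) (u w : E5) : om (g t u) w = om u (g (-t) w) := by
  simp only [g_apply, mul_neg, cos_neg, sin_neg, om_eq]
  generalize cos (π * t) = a
  generalize sin (π * t) = s
  simp
  ring

lemma nn_g (t : ℝ) (z : E5) : nn (g t z) = nn z := by
  have h := cos_sq_add_sin_sq (π * t)
  simp only [g_apply, nn, rp_eq]
  generalize cos (π * t) = a at h ⊢
  generalize sin (π * t) = s at h ⊢
  simp
  linear_combination ((z 0).re ^ 2 + (z 0).im ^ 2 + (z 1).re ^ 2 + (z 1).im ^ 2 +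
    (z 2).re ^ 2 + (z 2).im ^ 2 + (z 3).re ^ 2 + (z 3).im ^ 2) * h

lemma bil_g (t : ℝ) (z : E5) : bil (g t z) (g t z) = bil z z := by
  have h : (cos (π * t) : ℂ) ^ 2 + (sin (π * t) : ℂ) ^ 2 = 1 := by
    exact_mod_cast cos_sq_add_sin_sq (π * t)
  simp only [g_apply, bil_eq]
  generalize cos (π * t) = a at h ⊢
  generalize sin (π * t) = s at h ⊢
  simp
  linear_combination (z 0 ^ 2 + z 1 ^ 2 + z 2 ^ 2 + z 3 ^ 2) * h

lemma g_mem_cone (t : ℝ) {z : E5} (hz : z ∈ unitCone) : g t z ∈ unitCone := by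
  obtain ⟨h1, h2⟩ := mem_unitCone.1 hz
  exact mem_unitCone.2 ⟨(nn_g t z).trans h1, (bil_g t z).trans h2⟩

/-- A smooth map into the unit ball fixing the unit sphere. -/
noncomputable def rho (z : E5) : E5 := (2 / (1 + nn z)) • z

lemma contDiff_rho {n : WithTop ℕ∞} : ContDiff ℝ n rho := by
  refine ContDiff.smul (contDiff_const.div (contDiff_const.add contDiff_nn) fun z => ?_)
    contDiff_id
  have := nn_nonneg z
  positivity

lemma nn_rho (z : E5) : nn (rho z) ≤ 1 := by
  have := nn_nonneg z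
  rw [rho, nn_rsmul, div_pow, div_mul_eq_mul_div, div_le_one (by positivity)]
  nlinarith [sq_nonneg (1 - nn z)]

lemma rho_of_nn {z : E5} (hz : nn z = 1) : rho z = z := by
  rw [rho, hz]; norm_num

lemma nn_of_mem {z : E5} (hz : z ∈ unitCone) : nn z = 1 := (mem_unitCone.1 hz).1

lemma smul_mem_cone {z : E5} (hz : z ∈ unitCone) (c : ℂ) (hc : ‖c‖ = 1) : c • z ∈ unitCone := by
  obtain ⟨h1, h2⟩ := mem_unitCone.1 hz
  exact mem_unitCone.2 ⟨(nn_smul c hc z).trans h1, by rw [bil_smul_smul, h2, mul_zero]⟩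

/-- The time change. -/
noncomputable def tau (ε t : ℝ) : ℝ := ε * (1 - cos (π * t)) / 2

/-- Its derivative. -/
noncomputable def tau' (ε t : ℝ) : ℝ := ε * (sin (π * t) * π) / 2

lemma tau_mem {ε : ℝ} (hε : 0 < ε) (t : ℝ) : tau ε t ∈ Icc 0 ε := by
  have h1 := cos_le_one (π * t)
  have h2 := neg_one_le_cos (π * t)
  unfold tau
  constructor
  · have : 0 ≤ 1 - cos (π * t) := by linarith
    positivity
  · nlinarith

lemma tau_zero (ε : ℝ) : tau ε 0 = 0 := by simp [tau]
lemma tau_one (ε : ℝ) : tau ε 1 = ε := by simp [tau]; ring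

lemma hasDerivAt_tau (ε t : ℝ) : HasDerivAt (tau ε) (tau' ε t) t := by
  have h1 : HasDerivAt (fun s : ℝ => π * s) π t := by simpa using (hasDerivAt_id t).const_mul π
  have := ((h1.cos.const_sub 1).const_mul ε).div_const 2
  refine HasDerivAt.congr_deriv this ?_
  simp [tau']

lemma contDiff_tau (ε : ℝ) {n : WithTop ℕ∞} : ContDiff ℝ n (tau ε) := by
  unfold tau; fun_prop

lemma contDiff_tau' (ε : ℝ) {n : WithTop ℕ∞} : ContDiff ℝ n (tau' ε) := by
  unfold tau'; fun_prop

variable {ε : ℝ} {φ : ℝ × E5 → E5}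

lemma Good.contDiff_comp (h : Good ε φ) :
    ContDiff ℝ ω (fun p : ℝ × E5 => φ (tau ε p.1, rho p.2)) := by
  rw [contDiff_iff_contDiffAt]
  intro p
  refine ContDiffAt.comp (g := φ) (f := fun p : ℝ × E5 => (tau ε p.1, rho p.2)) p
    (h.smooth _ (tau_mem h.pos _) _ (nn_rho _)) ?_
  exact (((contDiff_tau ε).comp contDiff_fst).prodMk (contDiff_rho.comp contDiff_snd)).contDiffAt

/-- The lifted Hamiltonian isotopy. -/
noncomputable def Good.lift (h : Good ε φ) : HamiltonianConeLift where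
  Ψ := fun p => g p.1 (φ (tau ε p.1, rho p.2))
  H := fun p => π * q L1 p.2 + tau' ε p.1 * F (g (-p.1) p.2)
  smooth_Ψ := (contDiff_g.comp contDiff_fst).clm_apply (h.contDiff_comp.of_le le_top)
  smooth_H := (contDiff_const.mul ((contDiff_q L1).comp contDiff_snd)).add
    (((contDiff_tau' ε).comp contDiff_fst).mul
      (contDiff_F.comp ((contDiff_g.comp contDiff_fst.neg).clm_apply contDiff_snd)))
  mapsTo_cone := fun t z hz => by
    simp only [rho_of_nn (nn_of_mem hz)]
    exact g_mem_cone t (h.mem_cone hz (tau_mem h.pos t))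
  compatible := fun t z hz c hc => ⟨c, by
    simp only [rho_of_nn (nn_of_mem hz), rho_of_nn (nn_of_mem (smul_mem_cone hz c hc))]
    rw [h.smul_eq (nn_of_mem hz).le c hc (tau_mem h.pos t), g_smul]⟩
  start := fun z hz => ⟨1, by
    simp only [rho_of_nn (nn_of_mem hz), tau_zero, h.zero z (nn_of_mem hz).le, g_zero, one_smul]⟩
  invariant := fun t z _ c hc => by
    simp only [skew_L1.q_smul c hc, g_smul, F_smul c hc]
  hamilton := fun t _ z hz w _ => by
    have hz1 := nn_of_mem hz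
    simp only [rho_of_nn hz1]
    set y := φ (tau ε t, z) with hy
    have hy1 : nn y = 1 := (h.nn_eq hz1.le (tau_mem h.pos t)).trans hz1
    have d1 : HasDerivAt (fun s => φ (tau ε s, z)) (tau' ε t • V y) t :=
      (h.deriv z hz1.le _ (tau_mem h.pos t)).scomp t (hasDerivAt_tau ε t)
    have d2 := (hasDerivAt_g t).clm_apply d1
    rw [deriv_g_apply] at d2
    have d3 : HasFDerivAt F ((2 : ℝ) • om (V y)) (g (-t) (g t y)) := by
      rw [g_neg_g]; exact hasFDerivAt_F hy1
    have d4 := ((skew_L1.hasFDerivAt_q (g t y)).const_mul π).add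
      ((d3.comp (g t y) (g (-t)).hasFDerivAt).const_mul (tau' ε t))
    have d5 : HasFDerivAt (fun x : E5 => π * q L1 x + tau' ε t * F (g (-t) x)) _ (g t y) := d4
    rw [d2.deriv, d5.fderiv, ← om_def]
    simp [om_g, ← hy]
    ring

lemma Good.lift_one (h : Good ε φ) (z : E5) : h.lift.Ψ (1, z) = refl4 (φ (ε, rho z)) := by
  simp only [Good.lift, tau_one, g_one]

lemma Good.fixedLines_eq (h : Good ε φ) : fixedLines h.lift =
    {Submodule.span ℂ {zv 1 0}, Submodule.span ℂ {zv (-1 / 2) (√3 / 2)},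
      Submodule.span ℂ {zv (-1 / 2) (-√3 / 2)}} := by
  ext ℓ
  constructor
  · rintro ⟨z, hz, rfl, hf⟩
    rw [h.lift_one, rho_of_nn (nn_of_mem hz)] at hf
    obtain ⟨a, b, hab, he⟩ := h.span_of_fixed hz hf
    rw [he]
    rcases hab with ⟨rfl, rfl⟩ | ⟨rfl, rfl⟩ | ⟨rfl, rfl⟩ <;> simp
  · have key : ∀ a b, Adm a b → Submodule.span ℂ {zv a b} ∈ fixedLines h.lift := by
      intro a b hab
      refine ⟨zu a b, zu_mem hab.sq,
        (span_eq_of_mu (zu_last a b) (zu_mem hab.sq) (mu_zu hab.sq)).symm, ?_⟩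
      rw [h.lift_one, rho_of_nn (nn_zu hab.sq)]
      exact h.fixed_of_adm hab
    rintro (rfl | rfl | rfl)
    · exact key _ _ (Or.inl ⟨rfl, rfl⟩)
    · exact key _ _ (Or.inr (Or.inl ⟨rfl, rfl⟩))
    · exact key _ _ (Or.inr (Or.inr ⟨rfl, rfl⟩))

lemma Good.ncard_eq (h : Good ε φ) : (fixedLines h.lift).ncard = 3 := by
  rw [h.fixedLines_eq]
  have h3 : 0 < √3 := Real.sqrt_pos.2 (by norm_num)
  refine Set.ncard_eq_three.2 ⟨_, _, _, fun e => ?_, fun e => ?_, fun e => ?_, rfl⟩ <;>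
  · have := span_zv_inj e
    linarith

/-- The degenerate direction. -/
noncomputable def w0 : E5 := ![-1 + Complex.I, 0, 0, 0, 0]

/-- Second-order coefficient of `V` along the degenerate direction. -/
noncomputable def Bc (s : ℝ) : E5 :=
  ![0, 4 - 4 * Complex.I, 0, 0, 0] + (2 : ℝ) • (L2 + R2) (zu 1 0 + s • w0)

lemma nn_line (s : ℝ) : nn (zu 1 0 + s • w0) = 1 + 2 * s ^ 2 := by
  simp [nn, rp_eq, zu, zv, w0]; ring

lemma V_line (s : ℝ) : V (zu 1 0 + s • w0) = s ^ 2 • Bc s := by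
  have e0 : q L1 (zu 1 0 + s • w0) = 1 := by simp [q, om_eq, L1_apply, zu, zv, w0]; ring
  have e1 : q L2 (zu 1 0 + s • w0) = -2 * s := by simp [q, om_eq, L2_apply, zu, zv, w0]; ring
  have e2 : q L3 (zu 1 0 + s • w0) = 0 := by simp [q, om_eq, L3_apply, zu, zv, w0]
  have e3 : q R1 (zu 1 0 + s • w0) = 1 := by simp [q, om_eq, R1_apply, zu, zv, w0]; ring
  have e4 : q R2 (zu 1 0 + s • w0) = 2 * s := by simp [q, om_eq, R2_apply, zu, zv, w0]; ring
  have e5 : q R3 (zu 1 0 + s • w0) = 0 := by simp [q, om_eq, R3_apply, zu, zv, w0]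
  rw [V, e0, e1, e2, e3, e4, e5, nn_line, Bc]
  ext j
  fin_cases j <;>
    simp [L1_apply, L2_apply, L3_apply, R1_apply, R2_apply, R3_apply, zu, zv, w0] <;> ring

lemma V_zu : V (zu 1 0) = 0 := by simpa using V_line 0

lemma differentiable_Bc : Differentiable ℝ Bc := by
  unfold Bc
  fun_prop

lemma hasDerivAt_rho_line : HasDerivAt (fun s : ℝ => rho (zu 1 0 + s • w0)) w0 0 := by
  simp only [rho, nn_line]
  have h1 : HasDerivAt (fun s : ℝ => 2 / (1 + (1 + 2 * s ^ 2))) 0 0 := by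
    have h2 : HasDerivAt (fun s : ℝ => 1 + (1 + 2 * s ^ 2)) 0 0 := by
      simpa using ((((hasDerivAt_id (0 : ℝ)).pow 2).const_mul 2).const_add 1).const_add 1
    simpa using (hasDerivAt_const (0 : ℝ) (2 : ℝ)).fun_div h2 (by norm_num)
  have h3 : HasDerivAt (fun s : ℝ => zu 1 0 + s • w0) w0 0 := by
    simpa using ((hasDerivAt_id (0 : ℝ)).smul_const w0).const_add (zu 1 0)
  have := h1.fun_smul h3
  refine HasDerivAt.congr_deriv this ?_
  norm_num

lemma hasDerivAt_V_rho_line : HasDerivAt (fun s : ℝ => V (rho (zu 1 0 + s • w0))) 0 0 := by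
  simp only [rho, nn_line, V_rsmul, V_line]
  have h1 : DifferentiableAt ℝ (fun s : ℝ => (2 / (1 + (1 + 2 * s ^ 2))) ^ 3) 0 := by
    refine DifferentiableAt.pow (DifferentiableAt.div (by fun_prop) (by fun_prop) (by norm_num)) 3
  have h2 : HasDerivAt (fun s : ℝ => s ^ 2) 0 0 := by
    simpa using hasDerivAt_pow 2 (0 : ℝ)
  have := h1.hasDerivAt.fun_smul (h2.fun_smul (differentiable_Bc 0).hasDerivAt)
  refine HasDerivAt.congr_deriv this ?_
  simp

lemma Good.hasDerivAt_line (h : Good ε φ) :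
    HasDerivAt (fun s : ℝ => φ (ε, rho (zu 1 0 + s • w0))) w0 0 := by
  have hz : nn (zu 1 0) = 1 := nn_zu (by norm_num)
  have e0 : φ (ε, zu 1 0) = zu 1 0 := by
    have := h.disp hz.le
    simpa [V_zu, sub_eq_zero] using this
  have h1 : HasDerivAt (fun s : ℝ => φ (ε, rho (zu 1 0 + s • w0)) - rho (zu 1 0 + s • w0)) 0 0 := by
    have h2 := hasDerivAt_V_rho_line
    rw [hasDerivAt_iff_isLittleO] at h2 ⊢
    simp only [zero_smul, add_zero, rho_of_nn hz, V_zu, sub_zero, smul_zero, e0, sub_self] at h2 ⊢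
    refine Asymptotics.IsBigO.trans_isLittleO ?_ h2
    exact Asymptotics.IsBigO.of_bound (2 * ε)
      (Filter.Eventually.of_forall fun s => h.disp (nn_rho _))
  simpa using h1.fun_add hasDerivAt_rho_line

lemma Good.degenerate (h : Good ε φ) : HasDegenerateFixedPoint h.lift := by
  have hz : nn (zu 1 0) = 1 := nn_zu (by norm_num)
  have e0 : φ (ε, zu 1 0) = zu 1 0 := by
    have := h.disp hz.le
    simpa [V_zu, sub_eq_zero] using this
  refine ⟨zu 1 0, zu_mem (by norm_num), -1, ?_, w0, ⟨?_, ?_⟩, fun r hr => ?_, 0, ?_⟩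
  · rw [h.lift_one, rho_of_nn hz, e0, refl4_of_last (zu_last 1 0), neg_one_smul]
  · rw [← rp_def]; simp [rp_eq, zu, zv, w0]
  · simp [Fin.sum_univ_five, zu, zv, w0]
  · have := congrArg Complex.re (congrFun hr 0)
    simp [zu, zv, w0] at this
  · have hd : DifferentiableAt ℝ (fun x : E5 => h.lift.Ψ (1, x)) (zu 1 0) :=
      ((h.lift.smooth_Ψ.differentiable (by simp)).comp
        ((differentiable_const (1 : ℝ)).prodMk differentiable_id)) (zu 1 0)
    have h3 : HasDerivAt (fun s : ℝ => zu 1 0 + s • w0) w0 0 := by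
      simpa using ((hasDerivAt_id (0 : ℝ)).smul_const w0).const_add (zu 1 0)
    have h4 : HasFDerivAt (fun x : E5 => h.lift.Ψ (1, x))
        (fderiv ℝ (fun x : E5 => h.lift.Ψ (1, x)) (zu 1 0)) (zu 1 0 + (0 : ℝ) • w0) := by
      simpa using hd.hasFDerivAt
    have h5 := h4.comp_hasDerivAt (0 : ℝ) h3
    have h6 : HasDerivAt (fun s : ℝ => g 1 (φ (ε, rho (zu 1 0 + s • w0)))) (g 1 w0) 0 :=
      (g 1).hasFDerivAt.comp_hasDerivAt (0 : ℝ) h.hasDerivAt_line
    have h7 : ((fun x : E5 => h.lift.Ψ (1, x)) ∘ fun s : ℝ => zu 1 0 + s • w0) =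
        fun s : ℝ => g 1 (φ (ε, rho (zu 1 0 + s • w0))) := by
      funext s
      simp only [Function.comp_apply, h.lift_one, g_one]
    rw [h7] at h5
    rw [h5.unique h6, g_one, refl4_of_last (by simp [w0])]
    simp

theorem main : ∃ L : HamiltonianConeLift,
    (fixedLines L).ncard = 3 ∧ HasDegenerateFixedPoint L := by
  obtain ⟨ε, φ, h⟩ := exists_good
  exact ⟨h.lift, h.ncard_eq, h.degenerate⟩

end Crest.Agent.R205
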