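import Crest.Agent.R205.Flow

/-!
Short-time facts about autonomous differential equations: rescaling the local flow of a cubic
field, a displacement bound, and the absence of short periodic orbits.
-/

set_option autoImplicit false

open scoped ContDiff Topology NNReal
open Set Metric

namespace Crest.Agent.R205

variable {E : Type*} [NormedAddCommGroup E] [NormedSpace ℝ E]

/-- A homogeneous cubic field has an analytic flow on the ball of radius two for a short time. -/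
theorem exists_flow_cubic [CompleteSpace E] {V : E → E} (hV : Nem V) (hVc : Continuous V)
    (hom : ∀ (r : ℝ) (z : E), V (r • z) = r ^ 3 • V z) :
    ∃ κ : ℝ, 0 < κ ∧ ∃ φ : ℝ × E → E,
      (∀ p ∈ Ioo (-κ) κ ×ˢ ball (0 : E) 2, ContDiffAt ℝ ω φ p) ∧
      ∀ z ∈ ball (0 : E) 2, φ (0, z) = z ∧
        ∀ t ∈ Ioo (-κ) κ, HasDerivAt (fun s => φ (s, z)) (V (φ (t, z))) t := by
  obtain ⟨δ, hδ, Φ, hΦ, hΦ'⟩ := exists_local_flow hV hVc
  set r : ℝ := δ / 2 with hr
  have hr0 : 0 < r := by positivity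
  have hz' : ∀ z ∈ ball (0 : E) 2, r • z ∈ ball (0 : E) δ := by
    intro z hz
    rw [mem_ball_zero_iff] at hz ⊢
    rw [norm_smul, Real.norm_eq_abs, abs_of_pos hr0]
    calc r * ‖z‖ < r * 2 := by gcongr
      _ = δ := by rw [hr]; ring
  have ht' : ∀ t ∈ Ioo (-(δ * r ^ 2)) (δ * r ^ 2), (r ^ 2)⁻¹ * t ∈ Ioo (-δ) δ := by
    intro t ht
    have h2 : 0 < r ^ 2 := by positivity
    constructor
    · rw [lt_inv_mul_iff₀ h2]; linarith [ht.1]
    · rw [inv_mul_lt_iff₀ h2]; linarith [ht.2]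
  refine ⟨δ * r ^ 2, by positivity, fun p => r⁻¹ • Φ ((r ^ 2)⁻¹ * p.1, r • p.2), ?_, ?_⟩
  · intro p hp
    refine ContDiffAt.const_smul _ ?_
    refine ContDiffAt.comp (g := Φ) (f := fun p : ℝ × E => ((r ^ 2)⁻¹ * p.1, r • p.2)) p
      (hΦ _ ⟨ht' _ hp.1, hz' _ hp.2⟩) ?_
    fun_prop
  · intro z hz
    refine ⟨?_, fun t ht => ?_⟩
    · simp only [mul_zero]
      rw [(hΦ' _ (hz' z hz)).1, smul_smul, inv_mul_cancel₀ hr0.ne', one_smul]
    · have h1 := (hΦ' _ (hz' z hz)).2 _ (ht' t ht)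
      have h2 : HasDerivAt (fun s : ℝ => (r ^ 2)⁻¹ * s) ((r ^ 2)⁻¹) t := by
        simpa using (hasDerivAt_id t).const_mul ((r ^ 2)⁻¹)
      have h3 := (h1.scomp t h2).const_smul r⁻¹
      convert h3 using 1
      · rfl
      · rw [hom, smul_smul]
        congr 1
        field_simp

/-- Short-time displacement bound along a solution of a Lipschitz autonomous equation. -/
theorem displacement {W : E → E} {s : Set E} {L : ℝ≥0} (hW : LipschitzOnWith L W s)
    {m : ℝ → E} {ε : ℝ} (hε : 0 ≤ ε) (hm : ∀ t ∈ Icc 0 ε, HasDerivAt m (W (m t)) t)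
    (hs : ∀ t ∈ Icc 0 ε, m t ∈ s) (hL : ε * L ≤ 1 / 2) :
    ∀ t ∈ Icc 0 ε, ‖m t - m 0‖ ≤ 2 * ε * ‖W (m 0)‖ := by
  have hc : ContinuousOn (fun t => ‖m t - m 0‖) (Icc 0 ε) := by
    refine ContinuousOn.norm (ContinuousOn.sub ?_ continuousOn_const)
    exact fun t ht => (hm t ht).continuousAt.continuousWithinAt
  have h0 : (0 : ℝ) ∈ Icc 0 ε := ⟨le_rfl, hε⟩
  obtain ⟨t₀, ht₀, hmax⟩ := isCompact_Icc.exists_isMaxOn ⟨0, h0⟩ hc
  set D := ‖m t₀ - m 0‖ with hD
  have hD0 : 0 ≤ D := norm_nonneg _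
  have hb : ∀ t ∈ Ico 0 ε, ‖W (m t)‖ ≤ ‖W (m 0)‖ + L * D := by
    intro t ht
    have h1 := hW.dist_le_mul _ (hs t (Ico_subset_Icc_self ht)) _ (hs 0 h0)
    rw [dist_eq_norm, dist_eq_norm] at h1
    have h2 : ‖m t - m 0‖ ≤ D := hmax (Ico_subset_Icc_self ht)
    calc ‖W (m t)‖ = ‖W (m 0) + (W (m t) - W (m 0))‖ := by congr 1; abel
      _ ≤ ‖W (m 0)‖ + ‖W (m t) - W (m 0)‖ := norm_add_le _ _
      _ ≤ ‖W (m 0)‖ + L * D := by
        gcongr
        exact h1.trans (by gcongr)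
  have h := norm_image_sub_le_of_norm_deriv_le_segment'
    (fun t ht => (hm t ht).hasDerivWithinAt) hb t₀ ht₀
  have h3 : D ≤ (‖W (m 0)‖ + L * D) * ε := by
    refine h.trans ?_
    gcongr
    linarith [ht₀.2]
  have h4 : D ≤ 2 * ε * ‖W (m 0)‖ := by nlinarith
  exact fun t ht => (hmax ht).trans h4

/-- A Lipschitz autonomous equation has no nonconstant closed orbit of short period. -/
theorem eq_zero_of_short_period {W : E → E} {s : Set E} {L : ℝ≥0} (hW : LipschitzOnWith L W s)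
    {m : ℝ → E} {ε : ℝ} (hε : 0 < ε) (hm : ∀ t ∈ Icc 0 ε, HasDerivAt m (W (m t)) t)
    (hs : ∀ t ∈ Icc 0 ε, m t ∈ s) (hL : ε * L < 1 / 2) (hper : m ε = m 0) : W (m 0) = 0 := by
  have h0 : (0 : ℝ) ∈ Icc 0 ε := ⟨le_rfl, hε.le⟩
  have hd := displacement hW hε.le hm hs hL.le
  have hf : ∀ t ∈ Icc 0 ε, HasDerivWithinAt (fun t => m t - t • W (m 0)) (W (m t) - W (m 0))
      (Icc 0 ε) t := by
    intro t ht
    refine HasDerivAt.hasDerivWithinAt ?_
    simpa using (hm t ht).fun_sub ((hasDerivAt_id t).smul_const (W (m 0)))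
  have hb : ∀ t ∈ Ico 0 ε, ‖W (m t) - W (m 0)‖ ≤ L * (2 * ε * ‖W (m 0)‖) := by
    intro t ht
    have h1 := hW.dist_le_mul _ (hs t (Ico_subset_Icc_self ht)) _ (hs 0 h0)
    rw [dist_eq_norm, dist_eq_norm] at h1
    exact h1.trans (by gcongr; exact hd t (Ico_subset_Icc_self ht))
  have h := norm_image_sub_le_of_norm_deriv_le_segment' hf hb ε ⟨hε.le, le_rfl⟩
  simp only [hper, zero_smul, sub_zero, sub_sub_cancel_left, norm_neg, norm_smul,
    Real.norm_eq_abs, abs_of_pos hε] at h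
  by_contra hne
  have hpos : 0 < ‖W (m 0)‖ := norm_pos_iff.2 hne
  have : ε * ‖W (m 0)‖ * (1 - 2 * (ε * L)) ≤ 0 := by nlinarith
  have h2 : 0 < ε * ‖W (m 0)‖ * (1 - 2 * (ε * L)) := by
    apply mul_pos (mul_pos hε hpos); linarith
  linarith

end Crest.Agent.R205
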